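import Mathlib

/-!
# Derivations of a free group with values in the rational functions on a finite quotient

For a homomorphism `ψ` from the free group on `d` generators to a group `H`, we construct the
derivations `F → (H → ℚ)` (crossed homomorphisms for the translation action of `H` on the
functions `H → ℚ`) with prescribed values `v` on the generators, as a linear function of `v`.
-/

namespace Vale.Agent.Lib.P192

open Function Subgroup

section Derivation

variable {d : ℕ} {H : Type*} [Group H]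

/-- Right translation, acting linearly on the functions `H → ℚ`. -/
def tr : H →* Module.End ℚ (H → ℚ) where
  toFun k := LinearMap.funLeft ℚ ℚ (fun x => x * k)
  map_one' := by
    ext g x
    simp [LinearMap.funLeft]
  map_mul' k k' := by
    ext g x
    simp [LinearMap.funLeft, mul_assoc]

@[simp] lemma tr_apply (k : H) (g : H → ℚ) (x : H) : tr k g x = g (x * k) := rfl

variable (ψ : FreeGroup (Fin d) →* H)

/-- The linear automorphism of `(H → ℚ) × (Fin d → H → ℚ)` attached to the `i`-th generator: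
`(m, v) ↦ (ψ(x_i) • m + v i, v)`. -/
def genAut (i : Fin d) :
    ((H → ℚ) × (Fin d → H → ℚ)) ≃ₗ[ℚ] ((H → ℚ) × (Fin d → H → ℚ)) where
  toFun p := (tr (ψ (FreeGroup.of i)) p.1 + p.2 i, p.2)
  map_add' p q := by
    refine Prod.ext ?_ rfl
    simp only [Prod.fst_add, Prod.snd_add, map_add, Pi.add_apply]
    abel
  map_smul' c p := by
    refine Prod.ext ?_ rfl
    simp only [Prod.smul_fst, Prod.smul_snd, map_smul, Pi.smul_apply, RingHom.id_apply, smul_add]
  invFun p := (tr (ψ (FreeGroup.of i))⁻¹ (p.1 - p.2 i), p.2)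
  left_inv p := by
    refine Prod.ext ?_ rfl
    funext x
    simp
  right_inv p := by
    refine Prod.ext ?_ rfl
    funext x
    simp

/-- The representation of the free group on `(H → ℚ) × (Fin d → H → ℚ)`. -/
def rho : FreeGroup (Fin d) →*
    (((H → ℚ) × (Fin d → H → ℚ)) ≃ₗ[ℚ] ((H → ℚ) × (Fin d → H → ℚ))) :=
  FreeGroup.lift (genAut ψ)

/-- The derivation with values `v` on the generators, evaluated at `x`, as a linear function
of `v`. -/
def der (x : FreeGroup (Fin d)) : (Fin d → H → ℚ) →ₗ[ℚ] (H → ℚ) :=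
  (LinearMap.fst ℚ _ _) ∘ₗ (rho ψ x).toLinearMap ∘ₗ (LinearMap.inr ℚ _ _)

lemma der_apply (x : FreeGroup (Fin d)) (v : Fin d → H → ℚ) :
    der ψ x v = (rho ψ x (0, v)).1 := rfl

theorem rho_apply (x : FreeGroup (Fin d)) (v : Fin d → H → ℚ) :
    ∀ m : H → ℚ, rho ψ x (m, v) = (tr (ψ x) m + der ψ x v, v) := by
  refine FreeGroup.induction_on x ?_ ?_ ?_ ?_
  · intro m
    simp [der_apply]
  · intro i m
    have h1 : rho ψ (FreeGroup.of i) = genAut ψ i := FreeGroup.lift_apply_of
    rw [der_apply, h1]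
    show (tr (ψ (FreeGroup.of i)) m + v i, v) = (tr (ψ (FreeGroup.of i)) m +
      (tr (ψ (FreeGroup.of i)) 0 + v i), v)
    simp only [map_zero, zero_add]
  · intro i _ m
    have h1 : rho ψ (FreeGroup.of i)⁻¹ = (genAut ψ i)⁻¹ := by
      rw [map_inv]
      congr 1
    rw [der_apply, h1]
    show (tr (ψ (FreeGroup.of i))⁻¹ (m - v i), v) = (tr (ψ (FreeGroup.of i)⁻¹) m +
      (tr (ψ (FreeGroup.of i))⁻¹ (0 - v i)), v)
    rw [map_inv ψ, map_sub, map_sub, map_zero, zero_sub, sub_eq_add_neg]
  · intro x y hx hy m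
    rw [der_apply, map_mul, LinearEquiv.mul_apply, LinearEquiv.mul_apply, hy m, hy 0, hx, hx]
    simp only [map_add, map_zero, zero_add, map_mul, Module.End.mul_apply]
    rw [add_assoc]

lemma der_one (v : Fin d → H → ℚ) : der ψ 1 v = 0 := by
  simp [der_apply]

lemma der_of (i : Fin d) (v : Fin d → H → ℚ) : der ψ (FreeGroup.of i) v = v i := by
  have h1 : rho ψ (FreeGroup.of i) = genAut ψ i := FreeGroup.lift_apply_of
  rw [der_apply, h1]
  show tr (ψ (FreeGroup.of i)) 0 + v i = v i
  rw [map_zero, zero_add]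

lemma der_mul (x y : FreeGroup (Fin d)) (v : Fin d → H → ℚ) :
    der ψ (x * y) v = der ψ x v + tr (ψ x) (der ψ y v) := by
  rw [der_apply, map_mul, LinearEquiv.mul_apply, rho_apply ψ y v 0, rho_apply ψ x v]
  simp only [map_zero, zero_add]
  rw [add_comm]

lemma der_pow (x : FreeGroup (Fin d)) (n : ℕ) (v : Fin d → H → ℚ) :
    der ψ (x ^ n) v = (∑ j ∈ Finset.range n, tr (ψ x) ^ j) (der ψ x v) := by
  induction n with
  | zero => simp [der_one]
  | succ n ih =>
    rw [pow_succ, der_mul, ih, Finset.sum_range_succ, LinearMap.add_apply, map_pow ψ, map_pow tr]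

/-- The elements of the kernel of `ψ` on which the derivation with generator values `v`
vanishes form a subgroup. -/
def zeroSub (v : Fin d → H → ℚ) : Subgroup (FreeGroup (Fin d)) where
  carrier := {x | ψ x = 1 ∧ der ψ x v = 0}
  mul_mem' := by
    rintro x y ⟨hx1, hx2⟩ ⟨hy1, hy2⟩
    refine ⟨by rw [map_mul, hx1, hy1, one_mul], ?_⟩
    rw [der_mul, hx2, hy2, map_zero, add_zero]
  one_mem' := ⟨map_one _, der_one ψ v⟩
  inv_mem' := by
    rintro x ⟨hx1, hx2⟩
    refine ⟨by rw [map_inv, hx1, inv_one], ?_⟩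
    have h := der_mul ψ x⁻¹ x v
    rw [inv_mul_cancel, der_one, hx2, map_zero, add_zero] at h
    exact h.symm

lemma mem_zeroSub {v : Fin d → H → ℚ} {x : FreeGroup (Fin d)} :
    x ∈ zeroSub ψ v ↔ ψ x = 1 ∧ der ψ x v = 0 := Iff.rfl

instance zeroSub_normal (v : Fin d → H → ℚ) : (zeroSub ψ v).Normal := by
  constructor
  rintro x ⟨hx1, hx2⟩ g
  refine ⟨by rw [map_mul, map_mul, hx1, mul_one, map_inv, mul_inv_cancel], ?_⟩
  have h := der_mul ψ g g⁻¹ v
  rw [mul_inv_cancel, der_one] at h
  rw [der_mul, der_mul, hx2, map_zero, add_zero, map_mul, hx1, mul_one, ← h]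

/-- The value of the derivation only depends on the coset modulo `zeroSub`. -/
lemma der_eq_of_mem_zeroSub {v : Fin d → H → ℚ} {a b : FreeGroup (Fin d)}
    (h : a⁻¹ * b ∈ zeroSub ψ v) : der ψ b v = der ψ a v := by
  have h1 : b = a * (a⁻¹ * b) := by group
  rw [h1, der_mul, h.2, map_zero, add_zero]

end Derivation

section Periodic

variable {d : ℕ} {H : Type*} [Group H] (ψ : FreeGroup (Fin d) →* H)

/-- In a periodic presented group, a derivation vanishing on the relators vanishes on the kernel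
of `ψ`. -/
theorem der_eq_zero_of_periodic (rels : Set (FreeGroup (Fin d)))
    (hper : IsMulTorsion (PresentedGroup rels)) (v : Fin d → H → ℚ)
    (hv : ∀ r ∈ rels, ψ r = 1 ∧ der ψ r v = 0) (x : FreeGroup (Fin d)) (hx : ψ x = 1) :
    der ψ x v = 0 := by
  have hle : Subgroup.normalClosure rels ≤ zeroSub ψ v :=
    Subgroup.normalClosure_le_normal (fun r hr => hv r hr)
  obtain ⟨k, hkpos, hk⟩ := (hper (PresentedGroup.mk rels x)).exists_pow_eq_one
  have h1 : x ^ k ∈ zeroSub ψ v := by
    apply hle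
    rw [← PresentedGroup.mk_eq_one_iff, map_pow]
    exact hk
  have h2 := h1.2
  rw [der_pow, hx, map_one] at h2
  simp only [one_pow, Finset.sum_const, Finset.card_range, LinearMap.smul_apply,
    Module.End.one_apply] at h2
  rcases smul_eq_zero.1 h2 with h3 | h3
  · omega
  · exact h3

/-- In a periodic presented group, every derivation vanishing on the relators is principal. -/
theorem der_eq_sub_of_periodic [Fintype H] (hψ : Surjective ψ) (rels : Set (FreeGroup (Fin d)))
    (hper : IsMulTorsion (PresentedGroup rels)) (v : Fin d → H → ℚ)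
    (hv : ∀ r ∈ rels, ψ r = 1 ∧ der ψ r v = 0) :
    ∃ u : H → ℚ, ∀ x, der ψ x v = u - tr (ψ x) u := by
  classical
  have hs : ∀ k, ψ (surjInv hψ k) = k := surjInv_eq hψ
  obtain ⟨S, hS⟩ : ∃ S : H → ℚ, S = ∑ k : H, der ψ (surjInv hψ k) v := ⟨_, rfl⟩
  refine ⟨(Fintype.card H : ℚ)⁻¹ • S, fun x => ?_⟩
  have hcard : (Fintype.card H : ℚ) ≠ 0 := by
    exact_mod_cast Fintype.card_ne_zero
  have h1 : ∀ k : H, der ψ (surjInv hψ (ψ x * k)) v =
      der ψ x v + tr (ψ x) (der ψ (surjInv hψ k) v) := by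
    intro k
    rw [← der_mul]
    apply der_eq_of_mem_zeroSub
    have h0 : ψ ((x * surjInv hψ k)⁻¹ * surjInv hψ (ψ x * k)) = 1 := by
      rw [map_mul, map_inv, map_mul, hs, hs, inv_mul_cancel]
    exact ⟨h0, der_eq_zero_of_periodic ψ rels hper v hv _ h0⟩
  have h2 : ∑ k : H, der ψ (surjInv hψ (ψ x * k)) v = S := by
    rw [hS]
    exact Fintype.sum_equiv (Equiv.mulLeft (ψ x)) _ _ (fun k => rfl)
  have h3 : S = (Fintype.card H : ℚ) • der ψ x v + tr (ψ x) S := by
    calc S = ∑ k : H, der ψ (surjInv hψ (ψ x * k)) v := h2.symm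
      _ = ∑ k : H, (der ψ x v + tr (ψ x) (der ψ (surjInv hψ k) v)) :=
          Finset.sum_congr rfl (fun k _ => h1 k)
      _ = (Fintype.card H : ℚ) • der ψ x v + tr (ψ x) S := by
          rw [Finset.sum_add_distrib, Finset.sum_const, Finset.card_univ, ← map_sum, ← hS,
            Nat.cast_smul_eq_nsmul]
  have h4 : S - tr (ψ x) S = (Fintype.card H : ℚ) • der ψ x v := sub_eq_of_eq_add h3
  rw [map_smul, ← smul_sub, h4, inv_smul_smul₀ hcard]

/-- The functions fixed by the translation by `k` form a space of dimension at most the index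
of the subgroup generated by `k`. -/
theorem finrank_fixed_le [Finite H] (k : H) :
    Module.finrank ℚ (LinearMap.ker (tr k - 1)) ≤ (Subgroup.zpowers k).index := by
  classical
  have hinv : ∀ g ∈ LinearMap.ker (tr k - 1), ∀ z ∈ Subgroup.zpowers k, ∀ x : H,
      g (x * z) = g x := by
    intro g hg
    have hg' : ∀ x, g (x * k) = g x := by
      intro x
      have h1 := congrFun (LinearMap.mem_ker.1 hg) x
      simp only [LinearMap.sub_apply, Module.End.one_apply, Pi.sub_apply, tr_apply,
        Pi.zero_apply, sub_eq_zero] at h1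
      exact h1
    let S : Subgroup H :=
      { carrier := {z | ∀ x, g (x * z) = g x}
        mul_mem' := by
          intro a b ha hb x
          rw [← mul_assoc, hb, ha]
        one_mem' := by
          intro x
          rw [mul_one]
        inv_mem' := by
          intro a ha x
          have h1 := ha (x * a⁻¹)
          rw [inv_mul_cancel_right] at h1
          exact h1.symm }
    have hle : Subgroup.zpowers k ≤ S := (Subgroup.zpowers_le).2 hg'
    exact fun z hz => hle hz
  let L : LinearMap.ker (tr k - 1) →ₗ[ℚ] (H ⧸ Subgroup.zpowers k → ℚ) :=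
    (LinearMap.funLeft ℚ ℚ (fun q : H ⧸ Subgroup.zpowers k => q.out)) ∘ₗ (Submodule.subtype _)
  have hL : Injective L := by
    rw [← LinearMap.ker_eq_bot, LinearMap.ker_eq_bot']
    rintro ⟨g, hg⟩ h0
    apply Subtype.ext
    funext x
    obtain ⟨z, hz⟩ := QuotientGroup.mk_out_eq_mul (Subgroup.zpowers k) x
    have h1 : g ((x : H ⧸ Subgroup.zpowers k).out) = 0 := congrFun h0 (x : H ⧸ Subgroup.zpowers k)
    rw [hz, hinv g hg z z.2 x] at h1
    exact h1
  have h1 := LinearMap.finrank_le_finrank_of_injective hL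
  have hfin : Fintype (H ⧸ Subgroup.zpowers k) := Fintype.ofFinite _
  rw [Module.finrank_fintype_fun_eq_card, ← Nat.card_eq_fintype_card] at h1
  rw [Subgroup.index_eq_card]
  exact h1

/-- The counting inequality: for a periodic group presented by `d` generators and the relators
`w i ^ n i`, and a homomorphism `ψ` from the free group onto a finite group `H` killing the
relators, `d * |H| + 1 ≤ |H| + ∑ i, [H : ⟨ψ (w i)⟩]`. -/
theorem card_bound [Fintype H] (hψ : Surjective ψ) {m : ℕ} (w : Fin m → FreeGroup (Fin d))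
    (n : Fin m → ℕ) (hrel : ∀ i, ψ (w i ^ n i) = 1)
    (hper : IsMulTorsion (PresentedGroup (Set.range fun i => w i ^ n i))) :
    d * Fintype.card H + 1 ≤ Fintype.card H + ∑ i, (Subgroup.zpowers (ψ (w i))).index := by
  classical
  have hmem : ∀ i (v : Fin d → H → ℚ),
      der ψ (w i ^ n i) v ∈ LinearMap.ker (tr (ψ (w i)) - 1) := by
    intro i v
    rw [LinearMap.mem_ker, der_pow, ← Module.End.mul_apply, mul_geom_sum, ← map_pow tr,
      ← map_pow ψ, hrel, map_one, sub_self, LinearMap.zero_apply]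
  let Φ : (Fin d → H → ℚ) →ₗ[ℚ] (∀ i : Fin m, LinearMap.ker (tr (ψ (w i)) - 1)) :=
    LinearMap.pi (fun i => (der ψ (w i ^ n i)).codRestrict _ (hmem i))
  have hker : ∀ v ∈ LinearMap.ker Φ, ∀ r ∈ Set.range (fun i => w i ^ n i),
      ψ r = 1 ∧ der ψ r v = 0 := by
    rintro v hv _ ⟨i, rfl⟩
    refine ⟨hrel i, ?_⟩
    have h1 := congrFun (LinearMap.mem_ker.1 hv) i
    exact congrArg Subtype.val h1
  let P : (H → ℚ) →ₗ[ℚ] (Fin d → H → ℚ) :=
    LinearMap.pi (fun j => (1 : Module.End ℚ (H → ℚ)) - tr (ψ (FreeGroup.of j)))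
  have hle : LinearMap.ker Φ ≤ LinearMap.range P := by
    intro v hv
    obtain ⟨u, hu⟩ := der_eq_sub_of_periodic ψ hψ _ hper v (hker v hv)
    refine ⟨u, ?_⟩
    funext j
    show u - tr (ψ (FreeGroup.of j)) u = v j
    rw [← hu, der_of]
  have hV : Module.finrank ℚ (Fin d → H → ℚ) = d * Fintype.card H := by
    rw [Module.finrank_pi_fintype]
    simp
  have h1 : Module.finrank ℚ (LinearMap.range Φ) + Module.finrank ℚ (LinearMap.ker Φ) =
      Module.finrank ℚ (Fin d → H → ℚ) := LinearMap.finrank_range_add_finrank_ker Φ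
  have h2 : Module.finrank ℚ (LinearMap.range Φ) ≤
      Module.finrank ℚ (∀ i : Fin m, LinearMap.ker (tr (ψ (w i)) - 1)) := Submodule.finrank_le _
  have h3 : Module.finrank ℚ (∀ i : Fin m, LinearMap.ker (tr (ψ (w i)) - 1)) =
      ∑ i, Module.finrank ℚ (LinearMap.ker (tr (ψ (w i)) - 1)) := Module.finrank_pi_fintype ℚ
  have h4 : ∑ i, Module.finrank ℚ (LinearMap.ker (tr (ψ (w i)) - 1)) ≤
      ∑ i, (Subgroup.zpowers (ψ (w i))).index :=
    Finset.sum_le_sum (fun i _ => finrank_fixed_le (ψ (w i)))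
  have h5 : Module.finrank ℚ (LinearMap.ker Φ) ≤ Module.finrank ℚ (LinearMap.range P) :=
    Submodule.finrank_mono hle
  have h6 : Module.finrank ℚ (LinearMap.range P) + Module.finrank ℚ (LinearMap.ker P) =
      Fintype.card H := by
    rw [LinearMap.finrank_range_add_finrank_ker]
    simp
  have h7 : 1 ≤ Module.finrank ℚ (LinearMap.ker P) := by
    have hc : (fun _ : H => (1 : ℚ)) ∈ LinearMap.ker P := by
      rw [LinearMap.mem_ker]
      funext j
      funext x
      show (1 : ℚ) - 1 = 0
      rw [sub_self]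
    have hne : (⟨fun _ : H => (1 : ℚ), hc⟩ : LinearMap.ker P) ≠ 0 := by
      intro h0
      have h8 := congrFun (congrArg Subtype.val h0) (1 : H)
      exact one_ne_zero h8
    exact Nat.succ_le_of_lt (Module.finrank_pos_iff_exists_ne_zero.2 ⟨_, hne⟩)
  omega

end Periodic

end Vale.Agent.Lib.P192
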