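import Mathlib

/-!
# Finitely presented groups: change of generators and finite-index subgroups

* `ker_fng_of_surjective`: finite presentability does not depend on the finite generating family.
* `finite_of_fg_freeGroup`: a finitely generated free group has a finite basis.
* `isFinitelyPresented_of_finiteIndex`: a finite-index subgroup of a finitely presented group is
  finitely presented (Reidemeister-Schreier).
-/

namespace Vale.Agent.Lib.P192

open Function Subgroup

variable {G : Type*} [Group G]

/-- If `φ : FreeGroup α →* G` is surjective with finitely normally generated kernel, then every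
surjection onto `G` from a free group on a finite type has finitely normally generated kernel. -/
theorem ker_fng_of_surjective {α β : Type*} [Finite β]
    (φ : FreeGroup α →* G) (hφ : Surjective φ) (hker : φ.ker.IsFinitelyNormallyGenerated)
    (ψ : FreeGroup β →* G) (hψ : Surjective ψ) : ψ.ker.IsFinitelyNormallyGenerated := by
  obtain ⟨S, hSfin, hS⟩ := hker
  choose u hu using fun a : α => hψ (φ (FreeGroup.of a))
  choose v hv using fun b : β => hφ (ψ (FreeGroup.of b))
  let A : FreeGroup α →* FreeGroup β := FreeGroup.lift u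
  let B : FreeGroup β →* FreeGroup α := FreeGroup.lift v
  have hA : ∀ y, ψ (A y) = φ y := by
    have : ψ.comp A = φ := by
      apply FreeGroup.ext_hom; intro a; simp [A, hu]
    intro y; rw [← this]; rfl
  have hB : ∀ y, φ (B y) = ψ y := by
    have : φ.comp B = ψ := by
      apply FreeGroup.ext_hom; intro b; simp [B, hv]
    intro y; rw [← this]; rfl
  let T : Set (FreeGroup β) :=
    A '' S ∪ Set.range (fun b : β => (FreeGroup.of b)⁻¹ * A (B (FreeGroup.of b)))
  have hSker : ∀ s ∈ S, φ s = 1 := by
    intro s hs
    have : s ∈ φ.ker := hS ▸ subset_normalClosure hs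
    exact this
  refine ⟨T, (hSfin.image _).union (Set.finite_range _), ?_⟩
  apply le_antisymm
  · apply normalClosure_le_normal
    rintro x (⟨s, hs, rfl⟩ | ⟨b, rfl⟩)
    · show ψ (A s) = 1
      rw [hA, hSker s hs]
    · show ψ ((FreeGroup.of b)⁻¹ * A (B (FreeGroup.of b))) = 1
      rw [map_mul, map_inv, hA, hB, inv_mul_cancel]
  · intro x hx
    let q := QuotientGroup.mk' (normalClosure T)
    have hqT : ∀ t ∈ T, q t = 1 := by
      intro t ht
      exact (QuotientGroup.eq_one_iff t).2 (subset_normalClosure ht)
    have hle : φ.ker ≤ (q.comp A).ker := by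
      rw [← hS]
      apply normalClosure_le_normal
      intro s hs
      show q (A s) = 1
      exact hqT _ (Or.inl ⟨s, hs, rfl⟩)
    let γ : G →* FreeGroup β ⧸ normalClosure T := φ.liftOfSurjective hφ ⟨q.comp A, hle⟩
    have hγ : ∀ y, γ (φ y) = q (A y) := fun y =>
      φ.liftOfRightInverse_comp_apply _ _ ⟨q.comp A, hle⟩ y
    have hγψ : γ.comp ψ = q := by
      apply FreeGroup.ext_hom
      intro b
      have h1 : q ((FreeGroup.of b)⁻¹ * A (B (FreeGroup.of b))) = 1 :=
        hqT _ (Or.inr ⟨b, rfl⟩)
      rw [map_mul, map_inv, inv_mul_eq_one] at h1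
      rw [MonoidHom.comp_apply, ← hB, hγ, ← h1]
    have hx1 : q x = 1 := by
      rw [← hγψ, MonoidHom.comp_apply, MonoidHom.mem_ker.1 hx, map_one]
    exact (QuotientGroup.eq_one_iff x).1 hx1

/-- For a finitely presented group, every surjection from a free group on a finite type has a
finitely normally generated kernel. -/
theorem ker_fng_of_isFinitelyPresented [Group.IsFinitelyPresented G] {β : Type*} [Finite β]
    (ψ : FreeGroup β →* G) (hψ : Surjective ψ) : ψ.ker.IsFinitelyNormallyGenerated := by
  obtain ⟨n, φ, hφ, hker⟩ := Group.IsFinitelyPresented.out (G := G)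
  exact ker_fng_of_surjective φ hφ hker ψ hψ

/-- A free group that is finitely generated has a finite basis. -/
theorem finite_of_fg_freeGroup (X : Type*) [h : Group.FG (FreeGroup X)] : Finite X := by
  classical
  obtain ⟨S, hS, hSfin⟩ := Group.fg_iff.1 h
  let Y : Set X := ⋃ w ∈ S, {x | x ∈ (FreeGroup.toWord w).map Prod.fst}
  have hYfin : Y.Finite := by
    apply hSfin.biUnion
    intro w _
    exact List.finite_toSet _
  have hall : ∀ x : X, x ∈ Y := by
    intro x
    by_contra hx
    let π : FreeGroup X →* Multiplicative ℤ :=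
      FreeGroup.lift (fun y => if y = x then Multiplicative.ofAdd 1 else 1)
    have hker : closure S ≤ π.ker := by
      rw [closure_le]
      intro w hw
      show π w = 1
      rw [← FreeGroup.mk_toWord (x := w), FreeGroup.lift_mk]
      apply List.prod_eq_one
      intro z hz
      rw [List.mem_map] at hz
      obtain ⟨⟨y, b⟩, hyb, rfl⟩ := hz
      have hy : y ≠ x := by
        rintro rfl
        apply hx
        simp only [Y, Set.mem_iUnion]
        exact ⟨w, hw, List.mem_map.2 ⟨(y, b), hyb, rfl⟩⟩
      cases b <;> simp [hy]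
    rw [hS] at hker
    have h1 : π (FreeGroup.of x) = 1 := hker (mem_top _)
    simp [π] at h1
  exact Set.finite_univ_iff.1 (hYfin.subset (fun x _ => hall x))

/-- **Reidemeister-Schreier**: a finite-index subgroup of a finitely presented group is finitely
presented. -/
theorem isFinitelyPresented_of_finiteIndex [Group.IsFinitelyPresented G] (H : Subgroup G)
    [H.FiniteIndex] : Group.IsFinitelyPresented H := by
  obtain ⟨n, φ, hφ, S, hSfin, hS⟩ := Group.IsFinitelyPresented.out (G := G)
  let K : Subgroup (FreeGroup (Fin n)) := H.comap φ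
  have hKfi : K.FiniteIndex := by
    constructor
    rw [index_comap_of_surjective H hφ]
    exact FiniteIndex.index_ne_zero
  have : Group.FG K := inferInstance
  have : IsFreeGroup K := inferInstance
  have : Group.FG (FreeGroup (IsFreeGroup.Generators K)) :=
    Group.fg_of_surjective (f := (IsFreeGroup.toFreeGroup K).toMonoidHom)
      (IsFreeGroup.toFreeGroup K).surjective
  have : Finite (IsFreeGroup.Generators K) := finite_of_fg_freeGroup _
  have : Group.IsFinitelyPresented K :=
    Group.IsFinitelyPresented.equiv (IsFreeGroup.toFreeGroup K).symm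
  let φK : K →* H := φ.subgroupComap H
  have hφK : Surjective φK := φ.subgroupComap_surjective_of_surjective H hφ
  apply Group.IsFinitelyPresented.of_surjective φK hφK
  -- the kernel of `φK` is finitely normally generated
  have hNK : normalClosure S ≤ K := by
    rw [hS]
    intro x hx
    show φ x ∈ H
    rw [MonoidHom.mem_ker.1 hx]
    exact H.one_mem
  have hkerφK : ∀ x : K, x ∈ φK.ker ↔ (x : FreeGroup (Fin n)) ∈ normalClosure S := by
    intro x
    rw [hS, MonoidHom.mem_ker, MonoidHom.mem_ker]
    have hval : φ (x : FreeGroup (Fin n)) = ((φK x : H) : G) :=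
      (MonoidHom.subgroupComap_apply_coe φ H x).symm
    constructor
    · intro h
      rw [hval, h]
      rfl
    · intro h
      apply Subtype.ext
      rw [← hval, h]
      rfl
  let out' : FreeGroup (Fin n) ⧸ K → FreeGroup (Fin n) := fun q => Quotient.out q
  let R : Set (FreeGroup (Fin n)) := Set.range out'
  have hRfin : R.Finite := Set.finite_range _
  let T₀ : Set (FreeGroup (Fin n)) := (fun p : FreeGroup (Fin n) × FreeGroup (Fin n) =>
    p.1⁻¹ * p.2 * p.1) '' (R ×ˢ S)
  have hT₀fin : T₀.Finite := (hRfin.prod hSfin).image _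
  have hT₀N : T₀ ⊆ normalClosure S := by
    rintro _ ⟨⟨t, s⟩, ⟨_, hs⟩, rfl⟩
    have h1 : s ∈ normalClosure S := subset_normalClosure hs
    have h2 := (inferInstance : (normalClosure S).Normal).conj_mem s h1 t⁻¹
    simpa using h2
  let T' : Set K := K.subtype ⁻¹' T₀
  have hT'fin : T'.Finite := hT₀fin.preimage (Set.injOn_of_injective K.subtype_injective)
  refine ⟨T', hT'fin, ?_⟩
  apply le_antisymm
  · apply normalClosure_le_normal
    intro t ht
    exact (hkerφK t).2 (hT₀N ht)
  · intro x hx
    have hx' := (hkerφK x).1 hx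
    have hle : normalClosure S ≤ (normalClosure T').map K.subtype := by
      show closure (Group.conjugatesOfSet S) ≤ _
      rw [closure_le]
      intro y hy
      obtain ⟨s, hs, hconj⟩ := Group.mem_conjugatesOfSet_iff.1 hy
      obtain ⟨f, rfl⟩ := isConj_iff.1 hconj
      let t : FreeGroup (Fin n) := out' (QuotientGroup.mk f⁻¹ : FreeGroup (Fin n) ⧸ K)
      have htR : t ∈ R := ⟨_, rfl⟩
      have hk₀ : t⁻¹ * f⁻¹ ∈ K := by
        have : (QuotientGroup.mk t : FreeGroup (Fin n) ⧸ K) = QuotientGroup.mk f⁻¹ :=
          QuotientGroup.out_eq' _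
        exact QuotientGroup.eq.1 this
      have hz0 : t⁻¹ * s * t ∈ T₀ := ⟨(t, s), ⟨htR, hs⟩, rfl⟩
      have hzK : t⁻¹ * s * t ∈ K := hNK (hT₀N hz0)
      have hzT' : (⟨t⁻¹ * s * t, hzK⟩ : K) ∈ normalClosure T' := subset_normalClosure hz0
      have hconj' := (inferInstance : (normalClosure T').Normal).conj_mem _ hzT'
        (⟨t⁻¹ * f⁻¹, hk₀⟩ : K)⁻¹
      refine ⟨_, hconj', ?_⟩
      simp only [Subgroup.coe_subtype, Subgroup.coe_mul, Subgroup.coe_inv, inv_inv]
      group
    obtain ⟨y, hy, hyx⟩ := hle hx'
    have : y = x := Subtype.ext hyx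
    exact this ▸ hy

end Vale.Agent.Lib.P192
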