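import Vale.Agent.Lib.P192.FPBasic

/-!
# Finitely presented groups: extensions, products, wreath products

* `isFinitelyPresented_of_ker_of_surjective`: an extension of a finitely presented group by a
  finitely presented group is finitely presented.
* `isFinitelyPresented_prod`, `isFinitelyPresented_pi`: finite direct products.
* `isFinitelyPresented_wreath`: the regular wreath product of a finitely presented group with a
  finite group is finitely presented.
-/

namespace Vale.Agent.Lib.P192

open Function Subgroup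

/-- A subgroup `closure s` is normal as soon as a generating set of the group and the inverses of
its members conjugate `s` into `closure s`. -/
theorem normal_closure_of_generators {Γ : Type*} [Group Γ] (s gens : Set Γ)
    (hgens : closure gens = ⊤)
    (h1 : ∀ g ∈ gens, ∀ y ∈ s, g * y * g⁻¹ ∈ closure s)
    (h2 : ∀ g ∈ gens, ∀ y ∈ s, g⁻¹ * y * g ∈ closure s) : (closure s).Normal := by
  let M : Subgroup Γ :=
    { carrier := {g | (∀ k ∈ closure s, g * k * g⁻¹ ∈ closure s) ∧
        (∀ k ∈ closure s, g⁻¹ * k * g ∈ closure s)}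
      mul_mem' := by
        rintro a b ⟨ha1, ha2⟩ ⟨hb1, hb2⟩
        constructor
        · intro k hk
          have := ha1 _ (hb1 k hk)
          simpa [mul_assoc] using this
        · intro k hk
          have := hb2 _ (ha2 k hk)
          simpa [mul_assoc] using this
      one_mem' := by
        constructor <;> intro k hk <;> simpa using hk
      inv_mem' := by
        rintro a ⟨ha1, ha2⟩
        constructor
        · intro k hk
          simpa using ha2 k hk
        · intro k hk
          simpa using ha1 k hk }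
  have hM : closure gens ≤ M := by
    rw [closure_le]
    intro g hg
    constructor
    · intro k hk
      have hle : closure s ≤ (closure s).comap (MulAut.conj g).toMonoidHom := by
        rw [closure_le]
        intro y hy
        exact h1 g hg y hy
      exact hle hk
    · intro k hk
      have hle : closure s ≤ (closure s).comap (MulAut.conj g⁻¹).toMonoidHom := by
        rw [closure_le]
        intro y hy
        have := h2 g hg y hy
        show g⁻¹ * y * g⁻¹⁻¹ ∈ closure s
        simpa using this
      have := hle hk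
      have h3 : g⁻¹ * k * g⁻¹⁻¹ ∈ closure s := this
      simpa using h3
  constructor
  intro n hn g
  have hg : g ∈ M := hM (hgens ▸ mem_top g)
  exact hg.1 n hn

/-- An extension of a finitely presented group by a finitely presented group is finitely
presented: if `f : E →* Q` is surjective, `Q` is finitely presented and `f.ker` is finitely
presented, then so is `E`. -/
theorem isFinitelyPresented_of_ker_of_surjective {E Q : Type*} [Group E] [Group Q]
    (f : E →* Q) (hf : Surjective f) [hQ : Group.IsFinitelyPresented Q]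
    [hK : Group.IsFinitelyPresented f.ker] : Group.IsFinitelyPresented E := by
  obtain ⟨nK, φK, hφK, SK, hSKfin, hSK⟩ := hK.out
  obtain ⟨nQ, φQ, hφQ, -⟩ := hQ.out
  choose xt hxt using fun i : Fin nQ => hf (φQ (FreeGroup.of i))
  let π : FreeGroup (Fin nQ ⊕ Fin nK) →* E :=
    FreeGroup.lift (Sum.elim xt (fun j => (φK (FreeGroup.of j) : E)))
  let ιY : FreeGroup (Fin nK) →* FreeGroup (Fin nQ ⊕ Fin nK) := FreeGroup.map Sum.inr
  let ιX : FreeGroup (Fin nQ) →* FreeGroup (Fin nQ ⊕ Fin nK) := FreeGroup.map Sum.inl
  have hπY : ∀ w, π (ιY w) = (φK w : E) := by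
    have : π.comp ιY = (f.ker.subtype).comp φK := by
      apply FreeGroup.ext_hom
      intro j
      simp [π, ιY]
    intro w
    exact DFunLike.congr_fun this w
  have hπX : ∀ a, f (π (ιX a)) = φQ a := by
    have : (f.comp π).comp ιX = φQ := by
      apply FreeGroup.ext_hom
      intro i
      simp [π, ιX, hxt]
    intro a
    exact DFunLike.congr_fun this a
  have hπsurj : Surjective π := by
    intro e
    obtain ⟨a, ha⟩ := hφQ (f e)
    have hmem : e * (π (ιX a))⁻¹ ∈ f.ker := by
      rw [MonoidHom.mem_ker, map_mul, map_inv, hπX, ha, mul_inv_cancel]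
    obtain ⟨b, hb⟩ := hφK ⟨_, hmem⟩
    refine ⟨ιY b * ιX a, ?_⟩
    rw [map_mul, hπY, hb]
    simp
  have hlift : ∀ g : FreeGroup (Fin nQ ⊕ Fin nK), f (π g) = 1 →
      ∃ w : FreeGroup (Fin nK), π (ιY w) = π g := by
    intro g hg
    obtain ⟨w, hw⟩ := hφK ⟨π g, hg⟩
    exact ⟨w, by rw [hπY, hw]⟩
  obtain ⟨D₀, hD₀fin, hD₀⟩ := ker_fng_of_isFinitelyPresented (f.comp π) (hf.comp hπsurj)
  have hD₀ker : ∀ d ∈ D₀, f (π d) = 1 := by
    intro d hd
    have : d ∈ (f.comp π).ker := hD₀ ▸ subset_normalClosure hd
    exact this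
  have hchoice : ∀ g : FreeGroup (Fin nQ ⊕ Fin nK), ∃ w : FreeGroup (Fin nK),
      f (π g) = 1 → π (ιY w) = π g := by
    intro g
    by_cases hg : f (π g) = 1
    · obtain ⟨w, hw⟩ := hlift g hg
      exact ⟨w, fun _ => hw⟩
    · exact ⟨1, fun h => absurd h hg⟩
  choose wd hwd using hchoice
  let cp : (Fin nQ ⊕ Fin nK) × Fin nK → FreeGroup (Fin nQ ⊕ Fin nK) := fun p =>
    FreeGroup.of p.1 * ιY (FreeGroup.of p.2) * (FreeGroup.of p.1)⁻¹
  let cm : (Fin nQ ⊕ Fin nK) × Fin nK → FreeGroup (Fin nQ ⊕ Fin nK) := fun p =>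
    (FreeGroup.of p.1)⁻¹ * ιY (FreeGroup.of p.2) * FreeGroup.of p.1
  have hY1 : ∀ w : FreeGroup (Fin nK), f (π (ιY w)) = 1 := by
    intro w
    rw [hπY]
    exact (φK w).2
  let rel : FreeGroup (Fin nQ ⊕ Fin nK) → FreeGroup (Fin nQ ⊕ Fin nK) := fun g =>
    g * (ιY (wd g))⁻¹
  let T : Set (FreeGroup (Fin nQ ⊕ Fin nK)) :=
    rel '' D₀ ∪ Set.range (fun p => rel (cp p)) ∪ Set.range (fun p => rel (cm p)) ∪ ιY '' SK
  have hrel : ∀ g : FreeGroup (Fin nQ ⊕ Fin nK), f (π g) = 1 → π (rel g) = 1 := by
    intro g hg
    simp only [rel, map_mul, map_inv, hwd g hg, mul_inv_cancel]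
  have hTfin : T.Finite :=
    (((hD₀fin.image _).union (Set.finite_range _)).union (Set.finite_range _)).union
      (hSKfin.image _)
  have hSKker : ∀ s ∈ SK, φK s = 1 := by
    intro s hs
    have : s ∈ φK.ker := hSK ▸ subset_normalClosure hs
    exact this
  have hTker : ∀ t ∈ T, π t = 1 := by
    rintro t (((⟨d, hd, rfl⟩ | ⟨p, rfl⟩) | ⟨p, rfl⟩) | ⟨s, hs, rfl⟩)
    · exact hrel d (hD₀ker d hd)
    · apply hrel
      simp only [cp, map_mul, map_inv, hY1, mul_one, mul_inv_cancel]
    · apply hrel
      simp only [cm, map_mul, map_inv, hY1, mul_one, inv_mul_cancel]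
    · rw [hπY, hSKker s hs]
      rfl
  have hTle : normalClosure T ≤ π.ker := normalClosure_le_normal (fun t ht => hTker t ht)
  apply Group.IsFinitelyPresented.of_surjective π hπsurj
  refine ⟨T, hTfin, ?_⟩
  apply le_antisymm hTle
  intro g hg
  let q := QuotientGroup.mk' (normalClosure T)
  have hqT : ∀ t ∈ T, q t = 1 := fun t ht =>
    (QuotientGroup.eq_one_iff t).2 (subset_normalClosure ht)
  have hqrel : ∀ g, rel g ∈ T → q g = q (ιY (wd g)) := by
    intro g hgT
    have := hqT _ hgT
    simp only [rel, map_mul, map_inv] at this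
    exact mul_inv_eq_one.1 this
  let s : Set (FreeGroup (Fin nQ ⊕ Fin nK) ⧸ normalClosure T) :=
    Set.range (fun j : Fin nK => q (ιY (FreeGroup.of j)))
  have hKbar : ∀ w, q (ιY w) ∈ closure s := by
    intro w
    have : (q.comp ιY).range ≤ closure s := by
      rw [MonoidHom.range_eq_map, ← FreeGroup.closure_range_of, MonoidHom.map_closure, closure_le]
      rintro _ ⟨_, ⟨j, rfl⟩, rfl⟩
      exact subset_closure ⟨j, rfl⟩
    exact this ⟨w, rfl⟩
  have hnormal : (closure s).Normal := by
    apply normal_closure_of_generators s (Set.range (fun z => q (FreeGroup.of z)))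
    · have h1 : Set.range (fun z => q (FreeGroup.of z)) = q '' Set.range FreeGroup.of := by
        rw [← Set.range_comp]
        rfl
      rw [h1, ← MonoidHom.map_closure, FreeGroup.closure_range_of, ← MonoidHom.range_eq_map]
      exact MonoidHom.range_eq_top.2 (QuotientGroup.mk'_surjective _)
    · rintro _ ⟨z, rfl⟩ _ ⟨j, rfl⟩
      have h1 : q (cp (z, j)) = q (ιY (wd (cp (z, j)))) :=
        hqrel _ (Or.inl (Or.inl (Or.inr ⟨(z, j), rfl⟩)))
      have h2 : q (FreeGroup.of z) * q (ιY (FreeGroup.of j)) * (q (FreeGroup.of z))⁻¹ =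
          q (cp (z, j)) := by
        simp only [cp, map_mul, map_inv]
      rw [h2, h1]
      exact hKbar _
    · rintro _ ⟨z, rfl⟩ _ ⟨j, rfl⟩
      have h1 : q (cm (z, j)) = q (ιY (wd (cm (z, j)))) :=
        hqrel _ (Or.inl (Or.inr ⟨(z, j), rfl⟩))
      have h2 : (q (FreeGroup.of z))⁻¹ * q (ιY (FreeGroup.of j)) * q (FreeGroup.of z) =
          q (cm (z, j)) := by
        simp only [cm, map_mul, map_inv]
      rw [h2, h1]
      exact hKbar _
  have hgD : g ∈ normalClosure D₀ := by
    rw [hD₀]
    show f (π g) = 1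
    rw [MonoidHom.mem_ker.1 hg, map_one]
  have hle : normalClosure D₀ ≤ (closure s).comap q := by
    apply normalClosure_le_normal
    intro d hd
    show q d ∈ closure s
    rw [hqrel d (Or.inl (Or.inl (Or.inl ⟨d, hd, rfl⟩)))]
    exact hKbar _
  have hqg : q g ∈ closure s := hle hgD
  have hrange : closure s ≤ (q.comp ιY).range := by
    rw [closure_le]
    rintro _ ⟨j, rfl⟩
    exact ⟨FreeGroup.of j, rfl⟩
  obtain ⟨v, hv⟩ := hrange hqg
  have hv' : q (ιY v) = q g := hv
  have h3 : (ιY v)⁻¹ * g ∈ normalClosure T := QuotientGroup.eq.1 hv'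
  have h4 : π ((ιY v)⁻¹ * g) = 1 := hTle h3
  have h5 : π (ιY v) = 1 := by
    rw [map_mul, map_inv, MonoidHom.mem_ker.1 hg, mul_one, inv_eq_one] at h4
    exact h4
  have h6 : φK v = 1 := by
    apply Subtype.ext
    rw [← hπY, h5]
    rfl
  have h7 : v ∈ normalClosure SK := by
    rw [hSK]
    exact h6
  have h8 : normalClosure SK ≤ (normalClosure T).comap ιY := by
    apply normalClosure_le_normal
    intro s hs
    exact subset_normalClosure (Or.inr ⟨s, hs, rfl⟩)
  have h9 : q (ιY v) = 1 := (QuotientGroup.eq_one_iff _).2 (h8 h7)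
  rw [h9] at hv'
  exact (QuotientGroup.eq_one_iff g).1 hv'.symm

/-- The direct product of two finitely presented groups is finitely presented. -/
theorem isFinitelyPresented_prod {G₁ G₂ : Type*} [Group G₁] [Group G₂]
    [Group.IsFinitelyPresented G₁] [Group.IsFinitelyPresented G₂] :
    Group.IsFinitelyPresented (G₁ × G₂) := by
  have hker : Group.IsFinitelyPresented (MonoidHom.snd G₁ G₂).ker := by
    let e : G₁ →* (MonoidHom.snd G₁ G₂).ker :=
      (MonoidHom.inl G₁ G₂).codRestrict _ (fun g => MonoidHom.mem_ker.2 rfl)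
    have he : Bijective e := by
      constructor
      · intro a b hab
        have := congrArg (fun x : (MonoidHom.snd G₁ G₂).ker => (x : G₁ × G₂).1) hab
        simpa [e] using this
      · rintro ⟨⟨a, b⟩, hb⟩
        have hb' : b = 1 := MonoidHom.mem_ker.1 hb
        subst hb'
        exact ⟨a, Subtype.ext rfl⟩
    exact Group.IsFinitelyPresented.equiv (MulEquiv.ofBijective e he)
  exact isFinitelyPresented_of_ker_of_surjective (MonoidHom.snd G₁ G₂) Prod.snd_surjective

/-- A finite power `Fin n → G` of a finitely presented group is finitely presented. -/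
theorem isFinitelyPresented_pi_fin {G : Type*} [Group G] [Group.IsFinitelyPresented G] (n : ℕ) :
    Group.IsFinitelyPresented (Fin n → G) := by
  induction n with
  | zero => infer_instance
  | succ n ih =>
    let e : (G × (Fin n → G)) ≃* (Fin (n + 1) → G) :=
      { toFun := fun p => Fin.cons p.1 p.2
        invFun := fun f => (f 0, fun i => f i.succ)
        left_inv := by intro p; simp
        right_inv := by intro f; exact Fin.cons_self_tail f
        map_mul' := by
          intro p p'
          funext i
          refine Fin.cases ?_ ?_ i <;> simp }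
    have := isFinitelyPresented_prod (G₁ := G) (G₂ := Fin n → G)
    exact Group.IsFinitelyPresented.equiv e

/-- A finite power `Q → G` of a finitely presented group is finitely presented. -/
theorem isFinitelyPresented_pi {G : Type*} [Group G] [Group.IsFinitelyPresented G]
    (Q : Type*) [Finite Q] : Group.IsFinitelyPresented (Q → G) := by
  obtain ⟨n, ⟨e⟩⟩ := Finite.exists_equiv_fin Q
  have := isFinitelyPresented_pi_fin (G := G) n
  exact Group.IsFinitelyPresented.equiv (MulEquiv.arrowCongr e.symm (MulEquiv.refl G))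

end Vale.Agent.Lib.P192
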