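import Vale.Agent.Lib.P192.Perfect

/-!
# Perfect overgroups and two-generated overgroups of finitely presented periodic groups

* `exists_perfect_overgroup`: every finitely presented periodic group embeds in a perfect
  finitely presented periodic group.
* `exists_two_generated_overgroup_of_perfect`: every perfect finitely presented periodic group
  embeds in a finitely presented periodic group generated by two elements.
-/

namespace Vale.Agent.Lib.P192

open Function Subgroup

universe u

/-- Every finitely presented periodic group embeds in a perfect finitely presented periodic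
group. -/
theorem exists_perfect_overgroup (G : Type u) [Group G] [Group.IsFinitelyPresented G]
    (hG : IsMulTorsion G) :
    ∃ (H : Type u) (_ : Group H), Group.IsFinitelyPresented H ∧ IsMulTorsion H ∧
      Group.IsPerfect H ∧ ∃ f : G →* H, Injective f := by
  classical
  obtain ⟨n, φ, hφ, -⟩ := Group.IsFinitelyPresented.out (G := G)
  have hGfg : Group.FG G := Group.fg_of_surjective hφ
  have hAbfg : Group.FG (Abelianization G) :=
    Group.fg_of_surjective (f := Abelianization.of) (QuotientGroup.mk'_surjective _)
  have hAbfin : Finite (Abelianization G) :=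
    CommGroup.finite_of_fg_isMulTorsion _
      (hG.of_surjective (f := Abelianization.of) (QuotientGroup.mk'_surjective _))
  obtain ⟨e, he⟩ : ∃ e : ℕ, e = Nat.card (Abelianization G) := ⟨_, rfl⟩
  have he0 : 0 < e := he ▸ Nat.card_pos
  have hcard5 : 5 ≤ Nat.card (Fin (2 * e + 5)) := by
    rw [Nat.card_fin]
    omega
  have hP : commutator (alternatingGroup (Fin (2 * e + 5))) = ⊤ :=
    commutator_alternatingGroup_eq_top hcard5
  have hnt : Nontrivial (Fin (2 * e + 5)) := Fin.nontrivial_iff_two_le.2 (by omega)
  have h2card : 2 * Nat.card (alternatingGroup (Fin (2 * e + 5))) = (2 * e + 5).factorial := by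
    rw [two_mul_nat_card_alternatingGroup, Nat.card_perm, Nat.card_fin]
  have hdvd : e ∣ Nat.card (alternatingGroup (Fin (2 * e + 5))) := by
    have h1 : 2 * e ∣ (2 * e + 5).factorial := Nat.dvd_factorial (by omega) (by omega)
    rw [← h2card] at h1
    exact (Nat.mul_dvd_mul_iff_left two_pos).1 h1
  have h3card : 2 < Nat.card (alternatingGroup (Fin (2 * e + 5))) := by
    have h1 : Nat.factorial 5 ≤ (2 * e + 5).factorial := Nat.factorial_le (by omega)
    have h2 : Nat.factorial 5 = 120 := rfl
    omega
  obtain ⟨c₂, c₃, h2, h3, h23⟩ :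
      ∃ c₂ c₃ : alternatingGroup (Fin (2 * e + 5)), c₂ ≠ 1 ∧ c₃ ≠ 1 ∧ c₂ ≠ c₃ := by
    rw [Nat.card_eq_fintype_card, Fintype.two_lt_card_iff] at h3card
    obtain ⟨a, b, c, hab, hac, hbc⟩ := h3card
    by_cases ha : a = 1
    · exact ⟨b, c, fun h => hab (ha.trans h.symm), fun h => hac (ha.trans h.symm), hbc⟩
    · by_cases hb : b = 1
      · exact ⟨a, c, ha, fun h => hbc (hb.trans h.symm), hac⟩
      · exact ⟨a, b, ha, hb, hab⟩
  have hWfp : Group.IsFinitelyPresented
      (RegularWreathProduct G (alternatingGroup (Fin (2 * e + 5)))) := isFinitelyPresented_wreath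
  have hKfi : (abProd G (alternatingGroup (Fin (2 * e + 5)))).ker.FiniteIndex := inferInstance
  have hKfp : Group.IsFinitelyPresented (abProd G (alternatingGroup (Fin (2 * e + 5)))).ker :=
    isFinitelyPresented_of_finiteIndex _
  have hKtors : IsMulTorsion (abProd G (alternatingGroup (Fin (2 * e + 5)))).ker :=
    (isMulTorsion_wreath hG).subgroup _
  have hKperf : Group.IsPerfect (abProd G (alternatingGroup (Fin (2 * e + 5)))).ker :=
    Subgroup.isPerfect_iff.2 (le_antisymm (commutator_le_left _ _)
      (ker_abProd_le_commutator hP c₂ c₃ h2 h3 h23))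
  let f₀ : G →* RegularWreathProduct G (alternatingGroup (Fin (2 * e + 5))) :=
    (baseHom G _).comp (Pi.constMonoidHom _ G)
  have hf₀ : ∀ g, f₀ g ∈ (abProd G (alternatingGroup (Fin (2 * e + 5)))).ker := by
    intro g
    rw [MonoidHom.mem_ker]
    show ∏ ω : alternatingGroup (Fin (2 * e + 5)), Abelianization.of g = 1
    rw [Finset.prod_const, Finset.card_univ, ← Nat.card_eq_fintype_card]
    obtain ⟨k, hk⟩ := hdvd
    rw [hk, he, pow_mul, pow_card_eq_one', one_pow]
  refine ⟨(abProd G (alternatingGroup (Fin (2 * e + 5)))).ker, inferInstance, hKfp, hKtors,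
    hKperf, f₀.codRestrict _ hf₀, ?_⟩
  intro g g' h
  have h1 : f₀ g = f₀ g' := congrArg Subtype.val h
  exact congrFun (baseHom_injective h1) 1

/-- Every perfect finitely presented periodic group embeds in a finitely presented periodic
group generated by two elements. -/
theorem exists_two_generated_overgroup_of_perfect (G : Type u) [Group G]
    [Group.IsFinitelyPresented G] (hG : IsMulTorsion G) (hperf : commutator G = ⊤) :
    ∃ (H : Type u) (_ : Group H), Group.IsFinitelyPresented H ∧ IsMulTorsion H ∧
      (∃ a b : H, closure {a, b} = ⊤) ∧ ∃ f : G →* H, Injective f := by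
  obtain ⟨n, φ, hφ, -⟩ := Group.IsFinitelyPresented.out (G := G)
  let x : Fin n → G := fun i => φ (FreeGroup.of i)
  have hx : closure (Set.range x) = ⊤ := by
    have h1 : Set.range x = φ '' Set.range FreeGroup.of := by
      rw [← Set.range_comp]
      rfl
    rw [h1, ← MonoidHom.map_closure, FreeGroup.closure_range_of, ← MonoidHom.range_eq_map]
    exact MonoidHom.range_eq_top.2 hφ
  have hNZ : NeZero (2 ^ (n + 1)) := ⟨by positivity⟩
  let a : RegularWreathProduct G (Multiplicative (ZMod (2 ^ (n + 1)))) :=
    baseHom G _ (spread x (sidonPos n))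
  let s : RegularWreathProduct G (Multiplicative (ZMod (2 ^ (n + 1)))) :=
    RegularWreathProduct.inl (Multiplicative.ofAdd (1 : ZMod (2 ^ (n + 1))))
  have haS : a ∈ closure ({a, s} : Set (RegularWreathProduct G _)) :=
    subset_closure (Set.mem_insert _ _)
  have hsS : s ∈ closure ({a, s} : Set (RegularWreathProduct G _)) :=
    subset_closure (Set.mem_insert_of_mem _ rfl)
  have hinl : ∀ c : Multiplicative (ZMod (2 ^ (n + 1))),
      RegularWreathProduct.inl c ∈ closure ({a, s} : Set (RegularWreathProduct G _)) := by
    intro c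
    rw [zmod_eq_pow _ c, map_pow]
    exact Subgroup.pow_mem _ hsS _
  have htop : closure ({a, s} : Set (RegularWreathProduct G _)) = ⊤ := by
    rw [eq_top_iff]
    intro w _
    rw [wreath_eq_base_mul_inl w]
    refine mul_mem ?_ (hinl _)
    refine commutator_pi_le x hx (sidonPos n) (sidonPos_injective n) (sidonPos_sidon n) _ haS hinl
      _ (fun q => ?_)
    rw [hperf]
    exact Subgroup.mem_top _
  refine ⟨RegularWreathProduct G (Multiplicative (ZMod (2 ^ (n + 1)))), inferInstance,
    isFinitelyPresented_wreath, isMulTorsion_wreath hG, ⟨a, s, htop⟩,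
    (baseHom G _).comp (Pi.constMonoidHom _ G), ?_⟩
  intro g g' h
  exact congrFun (baseHom_injective h) 1

end Vale.Agent.Lib.P192
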