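import Mathlib

/-!
# A Sidon family in a finite cyclic group

The elements `2 ^ i`, `i < n`, of `ZMod (2 ^ (n + 1))` have pairwise distinct differences.
-/

namespace Vale.Agent.Lib.P192

lemma pow_two_add_sorted {a b c d : ℕ} (hab : a ≤ b) (hcd : c ≤ d)
    (h : 2 ^ a + 2 ^ b = 2 ^ c + 2 ^ d) : a = c ∧ b = d := by
  have hbd : b = d := by
    rcases lt_trichotomy b d with hlt | heq | hgt
    · exfalso
      have h1 : 2 ^ a ≤ 2 ^ b := Nat.pow_le_pow_right (by norm_num) hab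
      have h2 : 2 ^ (b + 1) ≤ 2 ^ d := Nat.pow_le_pow_right (by norm_num) hlt
      have h3 : 0 < 2 ^ c := pow_pos (by norm_num) _
      rw [pow_succ] at h2
      omega
    · exact heq
    · exfalso
      have h1 : 2 ^ c ≤ 2 ^ d := Nat.pow_le_pow_right (by norm_num) hcd
      have h2 : 2 ^ (d + 1) ≤ 2 ^ b := Nat.pow_le_pow_right (by norm_num) hgt
      have h3 : 0 < 2 ^ a := pow_pos (by norm_num) _
      rw [pow_succ] at h2
      omega
  subst hbd
  have h4 : 2 ^ a = 2 ^ c := by omega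
  exact ⟨Nat.pow_right_injective (le_refl 2) h4, rfl⟩

lemma pow_two_add {a b c d : ℕ} (h : 2 ^ a + 2 ^ b = 2 ^ c + 2 ^ d) :
    (a = c ∧ b = d) ∨ (a = d ∧ b = c) := by
  rcases le_total a b with hab | hab <;> rcases le_total c d with hcd | hcd
  · exact Or.inl (pow_two_add_sorted hab hcd h)
  · have h' : 2 ^ a + 2 ^ b = 2 ^ d + 2 ^ c := by omega
    exact Or.inr (pow_two_add_sorted hab hcd h')
  · have h' : 2 ^ b + 2 ^ a = 2 ^ c + 2 ^ d := by omega
    obtain ⟨h1, h2⟩ := pow_two_add_sorted hab hcd h'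
    exact Or.inr ⟨h2, h1⟩
  · have h' : 2 ^ b + 2 ^ a = 2 ^ d + 2 ^ c := by omega
    obtain ⟨h1, h2⟩ := pow_two_add_sorted hab hcd h'
    exact Or.inl ⟨h2, h1⟩

/-- The position of index `i` in the cyclic group of order `2 ^ (n + 1)`. -/
def sidonPos (n : ℕ) (i : Fin n) : Multiplicative (ZMod (2 ^ (n + 1))) :=
  Multiplicative.ofAdd (((2 ^ (i : ℕ) : ℕ)) : ZMod (2 ^ (n + 1)))

lemma two_pow_add_lt (n : ℕ) (i j : Fin n) : 2 ^ (i : ℕ) + 2 ^ (j : ℕ) < 2 ^ (n + 1) := by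
  have h1 : 2 ^ (i : ℕ) < 2 ^ n := Nat.pow_lt_pow_right (by norm_num) i.2
  have h2 : 2 ^ (j : ℕ) < 2 ^ n := Nat.pow_lt_pow_right (by norm_num) j.2
  rw [pow_succ]
  omega

lemma sidonPos_sidon (n : ℕ) (i j k l : Fin n) (hij : i ≠ j)
    (h : sidonPos n k * (sidonPos n l)⁻¹ = sidonPos n i * (sidonPos n j)⁻¹) : k = i ∧ l = j := by
  have h1 := congrArg Multiplicative.toAdd h
  simp only [sidonPos, toAdd_mul, toAdd_inv, toAdd_ofAdd] at h1
  push_cast at h1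
  have h2 : (((2 ^ (k : ℕ) + 2 ^ (j : ℕ) : ℕ)) : ZMod (2 ^ (n + 1))) =
      ((2 ^ (i : ℕ) + 2 ^ (l : ℕ) : ℕ) : ZMod (2 ^ (n + 1))) := by
    push_cast
    linear_combination h1
  rw [ZMod.natCast_eq_natCast_iff', Nat.mod_eq_of_lt (two_pow_add_lt n k j),
    Nat.mod_eq_of_lt (two_pow_add_lt n i l)] at h2
  rcases pow_two_add h2 with ⟨h3, h4⟩ | ⟨h3, h4⟩
  · exact ⟨Fin.ext h3, Fin.ext h4.symm⟩
  · exact absurd (Fin.ext h4.symm) hij

lemma sidonPos_injective (n : ℕ) : Function.Injective (sidonPos n) := by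
  intro i j h
  have h1 := congrArg Multiplicative.toAdd h
  simp only [sidonPos, toAdd_ofAdd] at h1
  have hi : 2 ^ (i : ℕ) < 2 ^ (n + 1) :=
    Nat.pow_lt_pow_right (by norm_num) (Nat.lt_succ_of_lt i.2)
  have hj : 2 ^ (j : ℕ) < 2 ^ (n + 1) :=
    Nat.pow_lt_pow_right (by norm_num) (Nat.lt_succ_of_lt j.2)
  rw [ZMod.natCast_eq_natCast_iff', Nat.mod_eq_of_lt hi, Nat.mod_eq_of_lt hj] at h1
  exact Fin.ext (Nat.pow_right_injective (le_refl 2) h1)

/-- Every element of the cyclic group is a power of the generator. -/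
lemma zmod_eq_pow (N : ℕ) [NeZero N] (c : Multiplicative (ZMod N)) :
    c = (Multiplicative.ofAdd (1 : ZMod N)) ^ (Multiplicative.toAdd c).val := by
  rw [← ofAdd_nsmul, nsmul_one, ZMod.natCast_zmod_val]
  rfl

end Vale.Agent.Lib.P192
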