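import Vale.Agent.Lib.P192.Wreath
import Vale.Agent.Lib.P192.Sidon

/-!
# Perfect overgroups and two-generated overgroups of finitely presented periodic groups

* `abProd`: the homomorphism `G ≀ P → Gᵃᵇ` multiplying the abelianized coordinates.
* `ker_abProd_perfect`: for a finite perfect group `P` with at least three elements, the kernel
  of `abProd` is a perfect group.
* `exists_perfect_overgroup`: every finitely presented periodic group embeds in a perfect
  finitely presented periodic group.
* `exists_two_generated_overgroup_of_perfect`: every perfect finitely presented periodic group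
  embeds in a two-generated finitely presented periodic group.
-/

namespace Vale.Agent.Lib.P192

open Function Subgroup

open scoped commutatorElement

section AbProd

variable (G P : Type*) [Group G] [Group P] [Fintype P]

/-- The product of the abelianized coordinates, a homomorphism from the regular wreath product
to the abelianization of `G`. -/
noncomputable def abProd : RegularWreathProduct G P →* Abelianization G where
  toFun w := ∏ ω, Abelianization.of (w.left ω)
  map_one' := by simp
  map_mul' a b := by
    simp only [RegularWreathProduct.mul_left, Pi.mul_apply, map_mul, Finset.prod_mul_distrib]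
    congr 1
    exact Fintype.prod_equiv (Equiv.mulLeft a.right⁻¹) _ _ (fun ω => rfl)

variable {G P}

lemma abProd_inl (c : P) : abProd G P (RegularWreathProduct.inl c) = 1 := by
  simp [abProd]

lemma abProd_base_mulSingle [DecidableEq P] (ω : P) (g : G) :
    abProd G P (baseHom G P (Pi.mulSingle ω g)) = Abelianization.of g := by
  show ∏ ω', Abelianization.of ((Pi.mulSingle ω g : P → G) ω') = Abelianization.of g
  rw [Finset.prod_eq_single ω]
  · rw [Pi.mulSingle_eq_same]
  · intro b _ hb
    rw [Pi.mulSingle_eq_of_ne hb, map_one]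
  · intro h
    exact absurd (Finset.mem_univ ω) h

lemma wreath_eq_base_mul_inl {Q : Type*} [Group Q] (w : RegularWreathProduct G Q) :
    w = baseHom G Q w.left * RegularWreathProduct.inl w.right := by
  ext <;> simp

/-- For a finite perfect group `P` with at least three elements, the kernel of `abProd` is a
perfect group: it is contained in its own commutator subgroup. -/
theorem ker_abProd_le_commutator [DecidableEq P] (hP : commutator P = ⊤) (c₂ c₃ : P)
    (h2 : c₂ ≠ 1) (h3 : c₃ ≠ 1) (h23 : c₂ ≠ c₃) :
    (abProd G P).ker ≤ ⁅(abProd G P).ker, (abProd G P).ker⁆ := by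
  -- notation
  let δ : P → G →* RegularWreathProduct G P := fun ω =>
    (baseHom G P).comp (MonoidHom.mulSingle (fun _ : P => G) ω)
  have hδ : ∀ ω g, δ ω g = baseHom G P (Pi.mulSingle ω g) := fun ω g => rfl
  let ψ : G → P → RegularWreathProduct G P := fun g c => δ 1 g * (δ c g)⁻¹
  have hψker : ∀ g c, ψ g c ∈ (abProd G P).ker := by
    intro g c
    rw [MonoidHom.mem_ker]
    simp only [ψ, map_mul, map_inv, hδ, abProd_base_mulSingle, mul_inv_cancel]
  have hinlker : ∀ c : P, RegularWreathProduct.inl c ∈ (abProd G P).ker := fun c =>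
    MonoidHom.mem_ker.2 (abProd_inl c)
  have hMnormal : (⁅(abProd G P).ker, (abProd G P).ker⁆).Normal := inferInstance
  -- (1) the permutation part
  have h1 : ∀ c : P, RegularWreathProduct.inl c ∈ ⁅(abProd G P).ker, (abProd G P).ker⁆ := by
    intro c
    have hc : c ∈ ⁅(⊤ : Subgroup P), (⊤ : Subgroup P)⁆ := by
      have hc' : c ∈ commutator P := by
        rw [hP]
        exact Subgroup.mem_top c
      exact hc'
    have h4 : RegularWreathProduct.inl c ∈
        (⁅(⊤ : Subgroup P), (⊤ : Subgroup P)⁆).map (RegularWreathProduct.inl : P →* RegularWreathProduct G P) :=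
      mem_map_of_mem _ hc
    rw [map_commutator] at h4
    refine commutator_mono ?_ ?_ h4
    · rintro _ ⟨c', -, rfl⟩
      exact hinlker c'
    · rintro _ ⟨c', -, rfl⟩
      exact hinlker c'
  -- conjugation by the permutation part moves coordinates
  have hconj : ∀ (c ω : P) (g : G), RegularWreathProduct.inl c * δ ω g *
      (RegularWreathProduct.inl c)⁻¹ = δ (c * ω) g := by
    intro c ω g
    rw [hδ, hδ, inl_conj_baseHom]
    congr 1
    funext y
    by_cases hy : y = c * ω
    · subst hy
      simp
    · rw [Pi.mulSingle_eq_of_ne hy, Pi.mulSingle_eq_of_ne]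
      intro h
      apply hy
      rw [← h]
      group
  -- (4) `ψ g c` lies in the commutator subgroup
  have h4 : ∀ (g : G) (c : P), ψ g c ∈ ⁅(abProd G P).ker, (abProd G P).ker⁆ := by
    intro g
    let q := QuotientGroup.mk' ⁅(abProd G P).ker, (abProd G P).ker⁆
    have hq1 : ∀ x y, x ∈ (abProd G P).ker → y ∈ (abProd G P).ker → q x * q y = q y * q x := by
      intro x y hx hy
      rw [← commutatorElement_eq_one_iff_mul_comm, ← map_commutatorElement]
      exact (QuotientGroup.eq_one_iff _).2 (commutator_mem_commutator hx hy)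
    have hmul : ∀ c₁ c₂ : P, q (ψ g (c₁ * c₂)) = q (ψ g c₁) * q (ψ g c₂) := by
      intro c₁ c₂
      have e1 : ψ g (c₁ * c₂) = ψ g c₁ * (RegularWreathProduct.inl c₁ * ψ g c₂ *
          (RegularWreathProduct.inl c₁)⁻¹) := by
        have e2 : RegularWreathProduct.inl c₁ * ψ g c₂ * (RegularWreathProduct.inl c₁)⁻¹ =
            δ c₁ g * (δ (c₁ * c₂) g)⁻¹ := by
          have e3 := hconj c₁ 1 g
          have e4 := hconj c₁ c₂ g
          rw [mul_one] at e3
          rw [← e3, ← e4]
          simp only [ψ]
          group
        rw [e2]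
        simp only [ψ]
        group
      have e5 := hq1 (RegularWreathProduct.inl c₁) (ψ g c₂) (hinlker c₁) (hψker g c₂)
      have e6 : q (RegularWreathProduct.inl c₁ * ψ g c₂ * (RegularWreathProduct.inl c₁)⁻¹) =
          q (ψ g c₂) := by
        rw [map_mul, map_mul, map_inv, e5, mul_inv_cancel_right]
      rw [e1, map_mul, e6]
    let Ψ : P →* RegularWreathProduct G P ⧸ ⁅(abProd G P).ker, (abProd G P).ker⁆ :=
      MonoidHom.mk' (fun c => q (ψ g c)) hmul
    have hker : commutator P ≤ Ψ.ker := by
      rw [commutator_eq_closure, closure_le]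
      rintro _ ⟨c₁, c₂, rfl⟩
      show Ψ ⁅c₁, c₂⁆ = 1
      rw [map_commutatorElement, commutatorElement_eq_one_iff_mul_comm]
      exact hq1 _ _ (hψker g c₁) (hψker g c₂)
    intro c
    have hc : c ∈ Ψ.ker := by
      apply hker
      rw [hP]
      exact Subgroup.mem_top c
    exact (QuotientGroup.eq_one_iff _).1 hc
  -- (2), (3): commutators in the first coordinate
  have h3' : ∀ g' ∈ commutator G, δ 1 g' ∈ ⁅(abProd G P).ker, (abProd G P).ker⁆ := by
    have hle : commutator G ≤ (⁅(abProd G P).ker, (abProd G P).ker⁆).comap (δ 1) := by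
      rw [commutator_eq_closure, closure_le]
      rintro _ ⟨g, h, rfl⟩
      rw [SetLike.mem_coe, Subgroup.mem_comap]
      have e1 : δ 1 ⁅g, h⁆ = ⁅ψ g c₂, ψ h c₃⁆ := by
        simp only [ψ, hδ]
        rw [← map_inv, ← map_inv, ← map_mul, ← map_mul, ← map_commutatorElement]
        congr 1
        funext y
        simp only [commutatorElement_def, Pi.mul_apply, Pi.inv_apply]
        by_cases hy1 : y = 1
        · subst hy1
          simp only [Pi.mulSingle_eq_same, Pi.mulSingle_eq_of_ne (Ne.symm h2),
            Pi.mulSingle_eq_of_ne (Ne.symm h3)]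
          group
        · simp only [Pi.mulSingle_eq_of_ne hy1]
          by_cases hy2 : y = c₂
          · subst hy2
            simp only [Pi.mulSingle_eq_of_ne h23]
            group
          · simp only [Pi.mulSingle_eq_of_ne hy2]
            group
      rw [e1]
      exact commutator_mem_commutator (hψker g c₂) (hψker h c₃)
    intro g' hg'
    exact hle hg'
  -- (5) the base part
  have h5 : ∀ f : P → G, ∃ g : G,
      baseHom G P f * (δ 1 g)⁻¹ ∈ ⁅(abProd G P).ker, (abProd G P).ker⁆ := by
    let J : Subgroup (P → G) :=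
      { carrier := {f | ∃ g : G,
          baseHom G P f * (δ 1 g)⁻¹ ∈ ⁅(abProd G P).ker, (abProd G P).ker⁆}
        mul_mem' := by
          rintro f₁ f₂ ⟨g₁, hg₁⟩ ⟨g₂, hg₂⟩
          refine ⟨g₁ * g₂, ?_⟩
          have e1 : baseHom G P (f₁ * f₂) * (δ 1 (g₁ * g₂))⁻¹ =
              (baseHom G P f₁ * (δ 1 g₁)⁻¹) *
                (δ 1 g₁ * (baseHom G P f₂ * (δ 1 g₂)⁻¹) * (δ 1 g₁)⁻¹) := by
            rw [map_mul, map_mul]
            group
          rw [e1]
          exact mul_mem hg₁ (hMnormal.conj_mem _ hg₂ _)
        one_mem' := ⟨1, by simp⟩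
        inv_mem' := by
          rintro f ⟨g, hg⟩
          refine ⟨g⁻¹, ?_⟩
          have e1 : baseHom G P f⁻¹ * (δ 1 g⁻¹)⁻¹ =
              (baseHom G P f)⁻¹ * (baseHom G P f * (δ 1 g)⁻¹)⁻¹ * (baseHom G P f)⁻¹⁻¹ := by
            rw [map_inv, map_inv]
            group
          rw [e1]
          exact hMnormal.conj_mem _ (inv_mem hg) _ }
    intro f
    have hf : f ∈ J := by
      apply Subgroup.pi_mem_of_mulSingle_mem
      intro ω
      refine ⟨f ω, ?_⟩
      have e1 : baseHom G P (Pi.mulSingle ω (f ω)) * (δ 1 (f ω))⁻¹ = (ψ (f ω) ω)⁻¹ := by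
        simp only [ψ, hδ]
        group
      rw [e1]
      exact inv_mem (h4 _ _)
    exact hf
  -- conclusion
  intro w hw
  rw [wreath_eq_base_mul_inl w]
  refine mul_mem ?_ (h1 _)
  obtain ⟨g, hg⟩ := h5 w.left
  have hbase : baseHom G P w.left ∈ (abProd G P).ker := by
    have e1 : baseHom G P w.left = w * (RegularWreathProduct.inl w.right)⁻¹ := by
      rw [eq_mul_inv_iff_mul_eq]
      exact (wreath_eq_base_mul_inl w).symm
    rw [e1]
    exact mul_mem hw (inv_mem (hinlker _))
  have hle : ⁅(abProd G P).ker, (abProd G P).ker⁆ ≤ (abProd G P).ker := commutator_le_left _ _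
  have hδker : δ 1 g ∈ (abProd G P).ker := by
    have e1 : δ 1 g = (baseHom G P w.left * (δ 1 g)⁻¹)⁻¹ * baseHom G P w.left := by group
    rw [e1]
    exact mul_mem (inv_mem (hle hg)) hbase
  have hgcomm : g ∈ commutator G := by
    rw [← Abelianization.ker_of, MonoidHom.mem_ker, ← abProd_base_mulSingle (P := P) 1 g]
    exact hδker
  have e2 : baseHom G P w.left = (baseHom G P w.left * (δ 1 g)⁻¹) * δ 1 g := by group
  rw [e2]
  exact mul_mem hg (h3' g hgcomm)

end AbProd

end Vale.Agent.Lib.P192
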