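import Vale.Agent.Lib.P192.FPExt

/-!
# Regular wreath products `G ≀ Q` with `Q` finite

* `isFinitelyPresented_wreath`, `isMulTorsion_wreath`: finite presentability and periodicity pass
  to the regular wreath product with a finite group.
* `commutator_pi_le`: a subgroup of the wreath product that contains `Q` and one element of the
  base group whose coordinates spread a generating family of `G` over a Sidon family of positions
  contains the whole power of the commutator subgroup of `G`.
* `finiteIndex_of_commutator_pi_le`: such a subgroup has finite index when the abelianization of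
  `G` is finite.
-/

namespace Vale.Agent.Lib.P192

open Function Subgroup

open scoped commutatorElement

/-- A subgroup is normal as soon as a generating set of the group and the inverses of its members
conjugate the subgroup into itself. -/
theorem normal_of_generators_conj {Γ : Type*} [Group Γ] (L : Subgroup Γ) (gens : Set Γ)
    (hgens : closure gens = ⊤)
    (h1 : ∀ g ∈ gens, ∀ y ∈ L, g * y * g⁻¹ ∈ L)
    (h2 : ∀ g ∈ gens, ∀ y ∈ L, g⁻¹ * y * g ∈ L) : L.Normal := by
  let M : Subgroup Γ :=
    { carrier := {g | (∀ k ∈ L, g * k * g⁻¹ ∈ L) ∧ (∀ k ∈ L, g⁻¹ * k * g ∈ L)}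
      mul_mem' := by
        rintro a b ⟨ha1, ha2⟩ ⟨hb1, hb2⟩
        constructor
        · intro k hk
          have := ha1 _ (hb1 k hk)
          simpa [mul_assoc] using this
        · intro k hk
          have := hb2 _ (ha2 k hk)
          simpa [mul_assoc] using this
      one_mem' := by
        constructor <;> intro k hk <;> simpa using hk
      inv_mem' := by
        rintro a ⟨ha1, ha2⟩
        constructor
        · intro k hk
          simpa using ha2 k hk
        · intro k hk
          simpa using ha1 k hk }
  have hM : closure gens ≤ M := by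
    rw [closure_le]
    intro g hg
    exact ⟨h1 g hg, h2 g hg⟩
  constructor
  intro n hn g
  have hg : g ∈ M := hM (hgens ▸ mem_top g)
  exact hg.1 n hn

/-- A normal subgroup containing the commutators of a generating family contains the commutator
subgroup. -/
theorem commutator_le_of_generators {Γ : Type*} [Group Γ] (L : Subgroup Γ) [L.Normal]
    (gens : Set Γ) (hgens : closure gens = ⊤) (h : ∀ a ∈ gens, ∀ b ∈ gens, ⁅a, b⁆ ∈ L) :
    commutator Γ ≤ L := by
  apply Subgroup.Normal.quotient_commutative_iff_commutator_le.mp
  have hcl : closure ((QuotientGroup.mk' L) '' gens) = ⊤ := by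
    rw [← MonoidHom.map_closure, hgens, ← MonoidHom.range_eq_map]
    exact MonoidHom.range_eq_top.2 (QuotientGroup.mk'_surjective L)
  have hcomm : ∀ a ∈ (QuotientGroup.mk' L) '' gens, ∀ b ∈ (QuotientGroup.mk' L) '' gens,
      a * b = b * a := by
    rintro _ ⟨a, ha, rfl⟩ _ ⟨b, hb, rfl⟩
    rw [← commutatorElement_eq_one_iff_mul_comm, ← map_commutatorElement]
    exact (QuotientGroup.eq_one_iff _).2 (h a ha b hb)
  have hC := Subgroup.isMulCommutative_closure hcomm
  rw [isMulCommutative_iff]
  intro a b
  have ha : a ∈ closure ((QuotientGroup.mk' L) '' gens) := hcl ▸ mem_top a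
  have hb : b ∈ closure ((QuotientGroup.mk' L) '' gens) := hcl ▸ mem_top b
  exact setLike_mul_comm ha hb

section Basic

variable (G Q : Type*) [Group G] [Group Q]

/-- The embedding of the base group `Q → G` into the regular wreath product. -/
def baseHom : (Q → G) →* RegularWreathProduct G Q where
  toFun f := ⟨f, 1⟩
  map_one' := rfl
  map_mul' f f' := by ext <;> simp

/-- Functoriality of the regular wreath product in the first factor. -/
def wreathMap {G' : Type*} [Group G'] (φ : G →* G') :
    RegularWreathProduct G Q →* RegularWreathProduct G' Q where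
  toFun w := ⟨fun q => φ (w.left q), w.right⟩
  map_one' := by ext <;> simp
  map_mul' a b := by ext <;> simp

variable {G Q}

@[simp] lemma baseHom_left (f : Q → G) : (baseHom G Q f).left = f := rfl

@[simp] lemma baseHom_right (f : Q → G) : (baseHom G Q f).right = 1 := rfl

lemma baseHom_injective : Injective (baseHom G Q) := by
  intro f f' h
  exact congrArg RegularWreathProduct.left h

lemma baseHom_left_eq (w : RegularWreathProduct G Q) (h : w.right = 1) :
    baseHom G Q w.left = w := by
  ext <;> simp [h]

lemma inl_conj_baseHom (c : Q) (f : Q → G) :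
    (RegularWreathProduct.inl c : RegularWreathProduct G Q) * baseHom G Q f *
      (RegularWreathProduct.inl c)⁻¹ = baseHom G Q (fun y => f (c⁻¹ * y)) := by
  ext <;> simp

/-- The regular wreath product of a finitely presented group with a finite group is finitely
presented. -/
theorem isFinitelyPresented_wreath [Group.IsFinitelyPresented G] [Finite Q] :
    Group.IsFinitelyPresented (RegularWreathProduct G Q) := by
  have hker : Group.IsFinitelyPresented
      (RegularWreathProduct.rightHom : RegularWreathProduct G Q →* Q).ker := by
    have := isFinitelyPresented_pi (G := G) Q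
    let e : (Q → G) →* (RegularWreathProduct.rightHom : RegularWreathProduct G Q →* Q).ker :=
      (baseHom G Q).codRestrict _ (fun f => MonoidHom.mem_ker.2 rfl)
    have he : Bijective e := by
      constructor
      · intro a b hab
        exact baseHom_injective (congrArg Subtype.val hab)
      · rintro ⟨w, hw⟩
        have hw' : w.right = 1 := MonoidHom.mem_ker.1 hw
        exact ⟨w.left, Subtype.ext (baseHom_left_eq w hw')⟩
    exact Group.IsFinitelyPresented.equiv (MulEquiv.ofBijective e he)
  exact isFinitelyPresented_of_ker_of_surjective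
    (RegularWreathProduct.rightHom : RegularWreathProduct G Q →* Q)
    (fun q => ⟨RegularWreathProduct.inl q, rfl⟩)

omit [Group Q] in
/-- A finite power of a periodic group is periodic. -/
theorem isMulTorsion_pi [Finite Q] (hG : IsMulTorsion G) : IsMulTorsion (Q → G) := by
  intro f
  have := Fintype.ofFinite Q
  rw [isOfFinOrder_iff_pow_eq_one]
  refine ⟨∏ q, orderOf (f q), ?_, ?_⟩
  · exact Finset.prod_pos (fun q _ => (hG (f q)).orderOf_pos)
  · funext q
    rw [Pi.pow_apply, Pi.one_apply]
    exact orderOf_dvd_iff_pow_eq_one.1 (Finset.dvd_prod_of_mem _ (Finset.mem_univ q))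

/-- The regular wreath product of a periodic group with a finite group is periodic. -/
theorem isMulTorsion_wreath [Finite Q] (hG : IsMulTorsion G) :
    IsMulTorsion (RegularWreathProduct G Q) := by
  apply IsMulTorsion.extension_closed
    (f := (RegularWreathProduct.rightHom : RegularWreathProduct G Q →* Q)) rfl
    isMulTorsion_of_finite
  rintro ⟨w, hw⟩
  have hw' : w.right = 1 := MonoidHom.mem_ker.1 hw
  have h1 : IsOfFinOrder (baseHom G Q w.left) :=
    (baseHom G Q).isOfFinOrder (isMulTorsion_pi hG w.left)
  rw [baseHom_left_eq w hw'] at h1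
  exact Submonoid.isOfFinOrder_coe.1 h1

end Basic

section Sidon

variable {G Q I : Type*} [Group G] [Group Q]

open Classical in
/-- The function `Q → G` with value `x i` at `p i` and `1` elsewhere. -/
noncomputable def spread (x : I → G) (p : I → Q) : Q → G :=
  fun y => if h : ∃ i, p i = y then x h.choose else 1

omit [Group Q] in
lemma spread_apply (x : I → G) (p : I → Q) (hp : Injective p) (i : I) :
    spread x p (p i) = x i := by
  have h : ∃ k, p k = p i := ⟨i, rfl⟩
  unfold spread
  rw [dif_pos h]
  exact congrArg x (hp h.choose_spec)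

omit [Group Q] in
lemma spread_eq_one (x : I → G) (p : I → Q) (y : Q) (hy : ∀ i, p i ≠ y) :
    spread x p y = 1 := by
  have h : ¬ ∃ i, p i = y := fun ⟨i, hi⟩ => hy i hi
  unfold spread
  rw [dif_neg h]

/-- The translate of `spread x p` by `c`. -/
noncomputable def shifted (x : I → G) (p : I → Q) (c : Q) : Q → G :=
  fun y => spread x p (c⁻¹ * y)

lemma shifted_apply (x : I → G) (p : I → Q) (hp : Injective p) (q : Q) (i : I) :
    shifted x p (q * (p i)⁻¹) q = x i := by
  unfold shifted
  have h : (q * (p i)⁻¹)⁻¹ * q = p i := by group
  rw [h, spread_apply x p hp]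

/-- Two translates of `spread x p` overlapping in exactly one position have a commutator
concentrated in that position. -/
lemma commutator_shifted [DecidableEq Q] (x : I → G) (p : I → Q) (hp : Injective p)
    (hsidon : ∀ i j k l, i ≠ j → p k * (p l)⁻¹ = p i * (p j)⁻¹ → k = i ∧ l = j)
    (q : Q) (i j : I) (hij : i ≠ j) :
    ⁅shifted x p (q * (p i)⁻¹), shifted x p (q * (p j)⁻¹)⁆ = Pi.mulSingle q ⁅x i, x j⁆ := by
  funext y
  rw [commutatorElement_def]
  simp only [Pi.mul_apply, Pi.inv_apply]
  rw [← commutatorElement_def]
  by_cases hy : y = q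
  · subst hy
    rw [shifted_apply x p hp, shifted_apply x p hp, Pi.mulSingle_eq_same]
  · rw [Pi.mulSingle_eq_of_ne hy]
    by_cases h1 : ∃ k, p k = (q * (p i)⁻¹)⁻¹ * y
    · by_cases h2 : ∃ l, p l = (q * (p j)⁻¹)⁻¹ * y
      · obtain ⟨k, hk⟩ := h1
        obtain ⟨l, hl⟩ := h2
        exfalso
        have hkl : p k * (p l)⁻¹ = p i * (p j)⁻¹ := by
          rw [hk, hl]
          group
        obtain ⟨hki, -⟩ := hsidon i j k l hij hkl
        rw [hki] at hk
        apply hy
        calc y = (q * (p i)⁻¹) * ((q * (p i)⁻¹)⁻¹ * y) := by group
          _ = (q * (p i)⁻¹) * p i := by rw [← hk]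
          _ = q := by group
      · have h3 : shifted x p (q * (p j)⁻¹) y = 1 :=
          spread_eq_one x p _ (fun l hl => h2 ⟨l, hl⟩)
        rw [h3, commutatorElement_one_right]
    · have h3 : shifted x p (q * (p i)⁻¹) y = 1 :=
        spread_eq_one x p _ (fun k hk => h1 ⟨k, hk⟩)
      rw [h3, commutatorElement_one_left]

/-- Let `x` be a generating family of `G`, spread over an injective Sidon family `p` of positions
in the finite group `Q`.  A subgroup of the regular wreath product containing `Q` and the spread
element contains every element of the base group all of whose coordinates lie in the commutator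
subgroup of `G`. -/
theorem commutator_pi_le [Finite Q] (x : I → G) (hx : closure (Set.range x) = ⊤) (p : I → Q)
    (hp : Injective p)
    (hsidon : ∀ i j k l, i ≠ j → p k * (p l)⁻¹ = p i * (p j)⁻¹ → k = i ∧ l = j)
    (S : Subgroup (RegularWreathProduct G Q)) (ha : baseHom G Q (spread x p) ∈ S)
    (hinl : ∀ c : Q, RegularWreathProduct.inl c ∈ S) (f : Q → G)
    (hf : ∀ q, f q ∈ commutator G) : baseHom G Q f ∈ S := by
  classical
  have hshift : ∀ c : Q, baseHom G Q (shifted x p c) ∈ S := by
    intro c
    have h1 := S.mul_mem (S.mul_mem (hinl c) ha) (S.inv_mem (hinl c))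
    rwa [inl_conj_baseHom] at h1
  let δ : Q → G →* RegularWreathProduct G Q := fun q =>
    (baseHom G Q).comp (MonoidHom.mulSingle (fun _ : Q => G) q)
  have hδ : ∀ q g, δ q g = baseHom G Q (Pi.mulSingle q g) := fun q g => rfl
  have hcomm : ∀ q i j, ⁅x i, x j⁆ ∈ S.comap (δ q) := by
    intro q i j
    by_cases hij : i = j
    · subst hij
      rw [commutatorElement_self]
      exact one_mem _
    · show δ q ⁅x i, x j⁆ ∈ S
      rw [hδ, ← commutator_shifted x p hp hsidon q i j hij, map_commutatorElement,
        commutatorElement_def]
      exact S.mul_mem (S.mul_mem (S.mul_mem (hshift _) (hshift _)) (S.inv_mem (hshift _)))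
        (S.inv_mem (hshift _))
  have hconj : ∀ (q : Q) (k : I) (y : G),
      baseHom G Q (shifted x p (q * (p k)⁻¹)) * δ q y *
        (baseHom G Q (shifted x p (q * (p k)⁻¹)))⁻¹ = δ q (x k * y * (x k)⁻¹) := by
    intro q k y
    rw [hδ, hδ, ← map_inv, ← map_mul, ← map_mul]
    congr 1
    funext z
    by_cases hz : z = q
    · subst hz
      simp [shifted_apply x p hp]
    · simp [Pi.mulSingle_eq_of_ne hz]
  have hconj' : ∀ (q : Q) (k : I) (y : G),
      (baseHom G Q (shifted x p (q * (p k)⁻¹)))⁻¹ * δ q y *
        baseHom G Q (shifted x p (q * (p k)⁻¹)) = δ q ((x k)⁻¹ * y * x k) := by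
    intro q k y
    rw [hδ, hδ, ← map_inv, ← map_mul, ← map_mul]
    congr 1
    funext z
    by_cases hz : z = q
    · subst hz
      simp [shifted_apply x p hp]
    · simp [Pi.mulSingle_eq_of_ne hz]
  have hnormal : ∀ q, (S.comap (δ q)).Normal := by
    intro q
    apply normal_of_generators_conj _ (Set.range x) hx
    · rintro _ ⟨k, rfl⟩ y hy
      show δ q (x k * y * (x k)⁻¹) ∈ S
      rw [← hconj]
      exact S.mul_mem (S.mul_mem (hshift _) hy) (S.inv_mem (hshift _))
    · rintro _ ⟨k, rfl⟩ y hy
      show δ q ((x k)⁻¹ * y * x k) ∈ S
      rw [← hconj']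
      exact S.mul_mem (S.mul_mem (S.inv_mem (hshift _)) hy) (hshift _)
  have hle : ∀ q, commutator G ≤ S.comap (δ q) := by
    intro q
    have := hnormal q
    apply commutator_le_of_generators _ (Set.range x) hx
    rintro _ ⟨i, rfl⟩ _ ⟨j, rfl⟩
    exact hcomm q i j
  have hmem : f ∈ S.comap (baseHom G Q) := by
    apply Subgroup.pi_mem_of_mulSingle_mem
    intro q
    exact hle q (hf q)
  exact hmem

/-- A subgroup of the regular wreath product containing the power of the commutator subgroup has
finite index, provided `Q` and the abelianization of `G` are finite. -/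
theorem finiteIndex_of_commutator_pi_le [Finite Q] [Finite (Abelianization G)]
    (S : Subgroup (RegularWreathProduct G Q))
    (h : ∀ f : Q → G, (∀ q, f q ∈ commutator G) → baseHom G Q f ∈ S) : S.FiniteIndex := by
  have hfin : (wreathMap G Q (Abelianization.of : G →* Abelianization G)).ker.FiniteIndex :=
    inferInstance
  apply Subgroup.finiteIndex_of_le
    (H := (wreathMap G Q (Abelianization.of : G →* Abelianization G)).ker)
  intro w hw
  have hw' : wreathMap G Q (Abelianization.of : G →* Abelianization G) w = 1 := hw
  have h1 : w.right = 1 := congrArg RegularWreathProduct.right hw'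
  have h2 : ∀ q, w.left q ∈ commutator G := by
    intro q
    have h3 : Abelianization.of (w.left q) = 1 :=
      congrFun (congrArg RegularWreathProduct.left hw') q
    rw [← Abelianization.ker_of]
    exact h3
  rw [← baseHom_left_eq w h1]
  exact h _ h2

end Sidon

end Vale.Agent.Lib.P192
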